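import Mathlib

/-!
# A Gram bound for the separation statistics on the Johnson scheme

For a finite ground set `D` with `m` elements, a mean-zero function `h` on the `p`-subsets of `D`
and a pair `c ⊆ D`, let `S c` be the sum of `h` over the `p`-subsets `T` that *separate* `c`
(`|T ∩ c| = 1`).  We prove

`∑_c (S c)^2 ≤ (m - 2) * C(m - 2, p - 1) * ∑_T h(T)^2`.

The proof avoids eigenspaces: with `v c = S c` one has `∑ v = 0` and, by Cauchy-Schwarz,
the square of `∑ v^2` is at most `|h|^2 * vᵀ G v`, where `G (c, c') = #(sep c ∩ sep c')` takes the three values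
`2 n₂`, `n₂`, `g₄` according to `#(c ∩ c') = 2, 1, 0`, so that `G` lies in the algebra of the
triangular graph and `vᵀ G v = g₄ |v|^2 + (n₂ - g₄) ∑_a (∑_{c ∋ a} v c)^2`.
-/

namespace Vale.Agent.Lib.P335.H13

open Finset

variable {α : Type*} [DecidableEq α]

/-- Indicator (as a real number) that the set `T` separates `a` from `b`. -/
def sepInd (a b : α) (T : Finset α) : ℝ :=
  if (a ∈ T ∧ b ∉ T) ∨ (a ∉ T ∧ b ∈ T) then 1 else 0

/-- Indicator that `T` contains `A` and is disjoint from `B`. -/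
def pat (A B : Finset α) (T : Finset α) : ℝ :=
  if A ⊆ T ∧ Disjoint T B then 1 else 0

theorem sepInd_self (a : α) (T : Finset α) : sepInd a a T = 0 := by
  unfold sepInd
  by_cases h : a ∈ T <;> simp [h]

theorem sepInd_comm (a b : α) (T : Finset α) : sepInd a b T = sepInd b a T := by
  unfold sepInd
  by_cases ha : a ∈ T <;> by_cases hb : b ∈ T <;> simp [ha, hb]

theorem sepInd_nonneg (a b : α) (T : Finset α) : 0 ≤ sepInd a b T := by
  unfold sepInd
  split_ifs <;> norm_num

theorem sepInd_le_one (a b : α) (T : Finset α) : sepInd a b T ≤ 1 := by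
  unfold sepInd
  split_ifs <;> norm_num

theorem sepInd_mul_self (a b : α) (T : Finset α) :
    sepInd a b T * sepInd a b T = sepInd a b T := by
  unfold sepInd
  split_ifs <;> norm_num

theorem sepInd_eq_pat (a b : α) (T : Finset α) :
    sepInd a b T = pat {a} {b} T + pat {b} {a} T := by
  unfold sepInd pat
  by_cases ha : a ∈ T <;> by_cases hb : b ∈ T <;> simp [ha, hb]

theorem sepInd_mul_three (a b d : α) (T : Finset α) :
    sepInd a b T * sepInd a d T = pat {a} {b, d} T + pat {b, d} {a} T := by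
  unfold sepInd pat
  by_cases ha : a ∈ T <;> by_cases hb : b ∈ T <;> by_cases hd : d ∈ T <;>
    simp [ha, hb, hd, Finset.insert_subset_iff]

theorem sepInd_mul_four (a b c d : α) (T : Finset α) :
    sepInd a b T * sepInd c d T
      = pat {a, c} {b, d} T + pat {a, d} {b, c} T + pat {b, c} {a, d} T + pat {b, d} {a, c} T := by
  unfold sepInd pat
  by_cases ha : a ∈ T <;> by_cases hb : b ∈ T <;> by_cases hc : c ∈ T <;> by_cases hd : d ∈ T <;>
    simp [ha, hb, hc, hd, Finset.insert_subset_iff]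

/-- Counting `p`-subsets of `D` that contain `A` and avoid `B`. -/
theorem sum_pat (D A B : Finset α) (p : ℕ) (hA : A ⊆ D) (hAB : Disjoint A B) :
    ∑ T ∈ D.powersetCard p, pat A B T
      = if A.card ≤ p then (((D \ B).card - A.card).choose (p - A.card) : ℝ) else 0 := by
  unfold pat
  rw [Finset.sum_boole]
  have h1 : (D.powersetCard p).filter (fun T => A ⊆ T ∧ Disjoint T B)
      = ((D \ B).powersetCard p).filter (fun T => A ⊆ T) := by
    ext T
    simp only [mem_filter, mem_powersetCard, subset_sdiff]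
    tauto
  rw [h1]
  split_ifs with hp
  · rw [card_filter_powersetCard_subset A (D \ B) p (subset_sdiff.mpr ⟨hA, hAB⟩) hp]
  · have : ((D \ B).powersetCard p).filter (fun T => A ⊆ T) = ∅ := by
      apply Finset.filter_eq_empty_iff.mpr
      intro T hT hAT
      rw [mem_powersetCard] at hT
      exact hp (hT.2 ▸ Finset.card_le_card hAT)
    rw [this]
    simp

theorem card_sdiff_one {D : Finset α} {b : α} (hb : b ∈ D) : (D \ {b}).card = D.card - 1 := by
  rw [Finset.card_sdiff_of_subset (Finset.singleton_subset_iff.mpr hb), Finset.card_singleton]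

theorem card_sdiff_two {D : Finset α} {b d : α} (hb : b ∈ D) (hd : d ∈ D) (hbd : b ≠ d) :
    (D \ {b, d}).card = D.card - 2 := by
  rw [Finset.card_sdiff_of_subset (by
    intro x hx
    simp only [mem_insert, mem_singleton] at hx
    rcases hx with rfl | rfl
    exacts [hb, hd]), Finset.card_pair hbd]

/-- `n₂ = C(m - 2, p - 1)`. -/
noncomputable def n2 (m p : ℕ) : ℝ := ((m - 2).choose (p - 1) : ℝ)

/-- `g₄ = 4 C(m - 4, p - 2)` (for `m ≥ 4`, `p ≥ 2`, and `0` otherwise). -/
noncomputable def g4 (m p : ℕ) : ℝ := if 4 ≤ m ∧ 2 ≤ p then 4 * ((m - 4).choose (p - 2) : ℝ) else 0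

theorem n2_nonneg (m p : ℕ) : 0 ≤ n2 m p := by
  unfold n2
  positivity

theorem g4_nonneg (m p : ℕ) : 0 ≤ g4 m p := by
  unfold g4
  split_ifs <;> positivity

theorem g4_eq_zero_of_lt {m p : ℕ} (hm : m < 4) : g4 m p = 0 := by
  unfold g4
  rw [if_neg]
  omega

theorem g4_le (m p : ℕ) : g4 m p ≤ 2 * n2 m p := by
  unfold g4 n2
  split_ifs with h
  · obtain ⟨hm, hp⟩ := h
    obtain ⟨k, rfl⟩ : ∃ k, m = k + 4 := ⟨m - 4, by omega⟩
    obtain ⟨q, rfl⟩ : ∃ q, p = q + 2 := ⟨p - 2, by omega⟩
    have e1 : k + 4 - 4 = k := by omega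
    have e2 : q + 2 - 2 = q := by omega
    have e3 : k + 4 - 2 = k + 2 := by omega
    have e4 : q + 2 - 1 = q + 1 := by omega
    rw [e1, e2, e3, e4]
    have h1 : (k + 2).choose (q + 1) = (k + 1).choose q + (k + 1).choose (q + 1) :=
      Nat.choose_succ_succ (k + 1) q
    have h2 : (k + 1).choose (q + 1) = k.choose q + k.choose (q + 1) := Nat.choose_succ_succ k q
    have h3 : k.choose q ≤ (k + 1).choose q := Nat.choose_le_succ k q
    have h4 : 2 * k.choose q ≤ (k + 2).choose (q + 1) := by omega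
    have h5 : (2 : ℝ) * (k.choose q : ℝ) ≤ ((k + 2).choose (q + 1) : ℝ) := by exact_mod_cast h4
    linarith
  · positivity

/-- Each separated pair is counted by `2 n₂` subsets. -/
theorem sum_sepInd (D : Finset α) (p : ℕ) (hp : 1 ≤ p) {a b : α} (ha : a ∈ D) (hb : b ∈ D)
    (hab : a ≠ b) :
    ∑ T ∈ D.powersetCard p, sepInd a b T = 2 * n2 D.card p := by
  simp_rw [sepInd_eq_pat]
  rw [Finset.sum_add_distrib,
    sum_pat D {a} {b} p (Finset.singleton_subset_iff.mpr ha) (by simpa using hab),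
    sum_pat D {b} {a} p (Finset.singleton_subset_iff.mpr hb) (by simpa using hab.symm)]
  simp only [Finset.card_singleton, hp, if_true, card_sdiff_one ha, card_sdiff_one hb]
  unfold n2
  have : D.card - 1 - 1 = D.card - 2 := by omega
  rw [this]
  ring

/-- Two pairs sharing exactly one point are simultaneously separated by `n₂` subsets. -/
theorem sum_sepInd_three (D : Finset α) (p : ℕ) (hp : 1 ≤ p) {a b d : α} (ha : a ∈ D)
    (hb : b ∈ D) (hd : d ∈ D) (hab : a ≠ b) (had : a ≠ d) (hbd : b ≠ d) :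
    ∑ T ∈ D.powersetCard p, sepInd a b T * sepInd a d T = n2 D.card p := by
  simp_rw [sepInd_mul_three]
  have hsub : ({b, d} : Finset α) ⊆ D := by
    intro x hx
    simp only [mem_insert, mem_singleton] at hx
    rcases hx with rfl | rfl
    exacts [hb, hd]
  have hdisj : Disjoint ({a} : Finset α) {b, d} := by
    simp [hab, had]
  rw [Finset.sum_add_distrib,
    sum_pat D {a} {b, d} p (Finset.singleton_subset_iff.mpr ha) hdisj,
    sum_pat D {b, d} {a} p hsub hdisj.symm]
  simp only [Finset.card_singleton, hp, if_true, card_sdiff_one ha, card_sdiff_two hb hd hbd,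
    Finset.card_pair hbd]
  have hm : 3 ≤ D.card := by
    have h3 : ({a, b, d} : Finset α).card = 3 := by
      rw [Finset.card_insert_of_notMem (by simp [hab, had]), Finset.card_pair hbd]
    have : ({a, b, d} : Finset α) ⊆ D := by
      intro x hx
      simp only [mem_insert, mem_singleton] at hx
      rcases hx with rfl | rfl | rfl
      exacts [ha, hb, hd]
    exact h3 ▸ Finset.card_le_card this
  unfold n2
  obtain ⟨k, hk⟩ : ∃ k, D.card = k + 3 := ⟨D.card - 3, by omega⟩
  obtain ⟨q, rfl⟩ : ∃ q, p = q + 1 := ⟨p - 1, by omega⟩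
  rw [hk]
  have e1 : k + 3 - 2 - 1 = k := by omega
  have e2 : q + 1 - 1 = q := by omega
  have e3 : k + 3 - 1 - 2 = k := by omega
  have e4 : k + 3 - 2 = k + 1 := by omega
  rw [e1, e2, e3, e4]
  rcases Nat.eq_zero_or_pos q with rfl | hq
  · simp
  · obtain ⟨r, rfl⟩ : ∃ r, q = r + 1 := ⟨q - 1, by omega⟩
    have e5 : r + 1 + 1 - 2 = r := by omega
    have h2 : (2 : ℕ) ≤ r + 1 + 1 := by omega
    rw [if_pos h2, e5, Nat.choose_succ_succ k r]
    push_cast
    ring

/-- Two disjoint pairs are simultaneously separated by `g₄` subsets. -/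
theorem sum_sepInd_four (D : Finset α) (p : ℕ) {a b c d : α} (ha : a ∈ D)
    (hb : b ∈ D) (hc : c ∈ D) (hd : d ∈ D) (hab : a ≠ b) (hac : a ≠ c) (had : a ≠ d)
    (hbc : b ≠ c) (hbd : b ≠ d) (hcd : c ≠ d) :
    ∑ T ∈ D.powersetCard p, sepInd a b T * sepInd c d T = g4 D.card p := by
  simp_rw [sepInd_mul_four]
  have hsub : ∀ {x y : α}, x ∈ D → y ∈ D → ({x, y} : Finset α) ⊆ D := by
    intro x y hx hy z hz
    simp only [mem_insert, mem_singleton] at hz
    rcases hz with rfl | rfl
    exacts [hx, hy]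
  have hdisj : ∀ {x y z w : α}, x ≠ z → x ≠ w → y ≠ z → y ≠ w →
      Disjoint ({x, y} : Finset α) {z, w} := by
    intro x y z w h1 h2 h3 h4
    rw [Finset.disjoint_left]
    intro t ht1 ht2
    simp only [mem_insert, mem_singleton] at ht1 ht2
    rcases ht1 with rfl | rfl <;> rcases ht2 with rfl | rfl
    exacts [h1 rfl, h2 rfl, h3 rfl, h4 rfl]
  rw [Finset.sum_add_distrib, Finset.sum_add_distrib, Finset.sum_add_distrib,
    sum_pat D {a, c} {b, d} p (hsub ha hc) (hdisj hab had hbc.symm hcd),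
    sum_pat D {a, d} {b, c} p (hsub ha hd) (hdisj hab hac hbd.symm hcd.symm),
    sum_pat D {b, c} {a, d} p (hsub hb hc) (hdisj hab.symm hbd hac.symm hcd),
    sum_pat D {b, d} {a, c} p (hsub hb hd) (hdisj hab.symm hbc had.symm hcd.symm)]
  simp only [Finset.card_pair hac, Finset.card_pair had, Finset.card_pair hbc, Finset.card_pair hbd,
    card_sdiff_two hb hd hbd, card_sdiff_two hb hc hbc, card_sdiff_two ha hd had,
    card_sdiff_two ha hc hac]
  have hm : 4 ≤ D.card := by
    have h4 : ({a, b, c, d} : Finset α).card = 4 := by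
      rw [Finset.card_insert_of_notMem (by simp [hab, hac, had]),
        Finset.card_insert_of_notMem (by simp [hbc, hbd]), Finset.card_pair hcd]
    have : ({a, b, c, d} : Finset α) ⊆ D := by
      intro x hx
      simp only [mem_insert, mem_singleton] at hx
      rcases hx with rfl | rfl | rfl | rfl
      exacts [ha, hb, hc, hd]
    exact h4 ▸ Finset.card_le_card this
  unfold g4
  have e : D.card - 2 - 2 = D.card - 4 := by omega
  rw [e]
  by_cases h2 : 2 ≤ p
  · rw [if_pos h2, if_pos ⟨hm, h2⟩]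
    ring
  · rw [if_neg h2, if_neg (fun h => h2 h.2)]
    ring

/-- Kronecker delta (real valued). -/
def dl (x y : α) : ℝ := if x = y then 1 else 0

/-- The Gram matrix of the separation indicators lies in the algebra of the triangular graph. -/
theorem gram_entry (D : Finset α) (p : ℕ) (hp : 1 ≤ p) {a b c d : α} (ha : a ∈ D) (hb : b ∈ D)
    (hc : c ∈ D) (hd : d ∈ D) (hab : a ≠ b) (hcd : c ≠ d) :
    ∑ T ∈ D.powersetCard p, sepInd a b T * sepInd c d T
      = g4 D.card p + (n2 D.card p - g4 D.card p) * (dl a c + dl a d + dl b c + dl b d)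
        + g4 D.card p * (dl a c * dl b d + dl a d * dl b c) := by
  unfold dl
  by_cases hac : a = c
  · subst hac
    by_cases hbd : b = d
    · subst hbd
      simp only [sepInd_mul_self, sum_sepInd D p hp ha hb hab, if_true, if_neg hab,
        if_neg hab.symm]
      ring
    · have had : a ≠ d := hcd
      rw [sum_sepInd_three D p hp ha hb hd hab had hbd]
      simp only [if_true, if_neg hab.symm, if_neg had, if_neg hbd]
      ring
  · by_cases had : a = d
    · subst had
      by_cases hbc : b = c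
      · subst hbc
        have e : ∀ T, sepInd a b T * sepInd b a T = sepInd a b T := fun T => by
          rw [sepInd_comm b a, sepInd_mul_self]
        simp only [e, sum_sepInd D p hp ha hb hab, if_true, if_neg hab, if_neg hab.symm]
        ring
      · have e : ∀ T, sepInd a b T * sepInd c a T = sepInd a b T * sepInd a c T := fun T => by
          rw [sepInd_comm c a]
        simp only [e]
        rw [sum_sepInd_three D p hp ha hb hc hab hac hbc]
        simp only [if_true, if_neg hac, if_neg hbc, if_neg hab.symm]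
        ring
    · by_cases hbc : b = c
      · subst hbc
        have e : ∀ T, sepInd a b T * sepInd b d T = sepInd b a T * sepInd b d T := fun T => by
          rw [sepInd_comm a b]
        simp only [e]
        rw [sum_sepInd_three D p hp hb ha hd hab.symm hcd had]
        simp only [if_true, if_neg hac, if_neg had, if_neg hcd]
        ring
      · by_cases hbd : b = d
        · subst hbd
          have e : ∀ T, sepInd a b T * sepInd c b T = sepInd b a T * sepInd b c T := fun T => by
            rw [sepInd_comm a b, sepInd_comm c b]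
          simp only [e]
          rw [sum_sepInd_three D p hp hb ha hc hab.symm hbc hac]
          simp only [if_true, if_neg hac, if_neg had, if_neg hbc]
          ring
        · rw [sum_sepInd_four D p ha hb hc hd hab hac had hbc hbd hcd]
          simp only [if_neg hac, if_neg had, if_neg hbc, if_neg hbd]
          ring

theorem sum_mul_dl {D : Finset α} {a : α} (ha : a ∈ D) (f : α → ℝ) :
    ∑ c ∈ D, f c * dl a c = f a := by
  unfold dl
  simp [mul_ite, Finset.sum_ite_eq, ha]

theorem row_formula {D : Finset α} (v : α → α → ℝ) (N G : ℝ) {a b : α} (ha : a ∈ D)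
    (hb : b ∈ D) (hsum : ∑ c ∈ D, ∑ d ∈ D, v c d = 0) :
    ∑ c ∈ D, ∑ d ∈ D, v c d * (G + (N - G) * (dl a c + dl a d + dl b c + dl b d)
        + G * (dl a c * dl b d + dl a d * dl b c))
      = (N - G) * (∑ d ∈ D, v a d + ∑ c ∈ D, v c a + ∑ d ∈ D, v b d + ∑ c ∈ D, v c b)
        + G * (v a b + v b a) := by
  have r0 : ∀ c d, v c d * (G + (N - G) * (dl a c + dl a d + dl b c + dl b d)
        + G * (dl a c * dl b d + dl a d * dl b c))
      = G * v c d + (N - G) * (v c d * dl a c) + (N - G) * (v c d * dl a d)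
        + (N - G) * (v c d * dl b c) + (N - G) * (v c d * dl b d)
        + G * (v c d * dl b d * dl a c) + G * (v c d * dl a d * dl b c) := by
    intro c d; ring
  have r1 : ∀ x ∈ D, ∑ c ∈ D, ∑ d ∈ D, v c d * dl x c = ∑ d ∈ D, v x d := by
    intro x hx
    rw [Finset.sum_comm]
    exact Finset.sum_congr rfl fun d _ => sum_mul_dl hx (fun c => v c d)
  have r2 : ∀ x ∈ D, ∑ c ∈ D, ∑ d ∈ D, v c d * dl x d = ∑ c ∈ D, v c x := by
    intro x hx
    exact Finset.sum_congr rfl fun c _ => sum_mul_dl hx (fun d => v c d)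
  have r5 : ∑ c ∈ D, ∑ d ∈ D, v c d * dl b d * dl a c = v a b := by
    have e : ∀ c ∈ D, ∑ d ∈ D, v c d * dl b d * dl a c = v c b * dl a c := by
      intro c _
      rw [← Finset.sum_mul, sum_mul_dl hb (fun d => v c d)]
    rw [Finset.sum_congr rfl e]
    exact sum_mul_dl ha (fun c => v c b)
  have r6 : ∑ c ∈ D, ∑ d ∈ D, v c d * dl a d * dl b c = v b a := by
    have e : ∀ c ∈ D, ∑ d ∈ D, v c d * dl a d * dl b c = v c a * dl b c := by
      intro c _
      rw [← Finset.sum_mul, sum_mul_dl ha (fun d => v c d)]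
    rw [Finset.sum_congr rfl e]
    exact sum_mul_dl hb (fun c => v c a)
  calc ∑ c ∈ D, ∑ d ∈ D, v c d * (G + (N - G) * (dl a c + dl a d + dl b c + dl b d)
        + G * (dl a c * dl b d + dl a d * dl b c))
      = G * (∑ c ∈ D, ∑ d ∈ D, v c d) + (N - G) * (∑ c ∈ D, ∑ d ∈ D, v c d * dl a c)
        + (N - G) * (∑ c ∈ D, ∑ d ∈ D, v c d * dl a d)
        + (N - G) * (∑ c ∈ D, ∑ d ∈ D, v c d * dl b c)
        + (N - G) * (∑ c ∈ D, ∑ d ∈ D, v c d * dl b d)
        + G * (∑ c ∈ D, ∑ d ∈ D, v c d * dl b d * dl a c)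
        + G * (∑ c ∈ D, ∑ d ∈ D, v c d * dl a d * dl b c) := by
        simp only [r0, Finset.sum_add_distrib, Finset.mul_sum]
    _ = _ := by
        rw [r1 a ha, r2 a ha, r1 b hb, r2 b hb, r5, r6, hsum]
        ring

theorem gram_algebra (D : Finset α) (v : α → α → ℝ) (Gm : α → α → α → α → ℝ) (N G : ℝ)
    (hvs : ∀ a b, v a b = v b a) (hv0 : ∀ a, v a a = 0)
    (hG : ∀ a ∈ D, ∀ b ∈ D, ∀ c ∈ D, ∀ d ∈ D, a ≠ b → c ≠ d →
      Gm a b c d = G + (N - G) * (dl a c + dl a d + dl b c + dl b d)
        + G * (dl a c * dl b d + dl a d * dl b c))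
    (hsum : ∑ a ∈ D, ∑ b ∈ D, v a b = 0) :
    ∑ a ∈ D, ∑ b ∈ D, v a b * ∑ c ∈ D, ∑ d ∈ D, v c d * Gm a b c d
      = 4 * (N - G) * ∑ a ∈ D, (∑ b ∈ D, v a b) ^ 2 + 2 * G * ∑ a ∈ D, ∑ b ∈ D, v a b ^ 2 := by
  have hrow : ∀ a ∈ D, ∀ b ∈ D, v a b * ∑ c ∈ D, ∑ d ∈ D, v c d * Gm a b c d
      = 2 * (N - G) * (v a b * ∑ d ∈ D, v a d) + 2 * (N - G) * (v a b * ∑ d ∈ D, v b d)
        + 2 * G * v a b ^ 2 := by
    intro a ha b hb
    by_cases hab : a = b
    · subst hab
      rw [hv0]
      ring
    · have e : ∑ c ∈ D, ∑ d ∈ D, v c d * Gm a b c d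
          = ∑ c ∈ D, ∑ d ∈ D, v c d * (G + (N - G) * (dl a c + dl a d + dl b c + dl b d)
              + G * (dl a c * dl b d + dl a d * dl b c)) := by
        refine Finset.sum_congr rfl fun c hc => Finset.sum_congr rfl fun d hd => ?_
        by_cases hcd : c = d
        · subst hcd
          rw [hv0]
          ring
        · rw [hG a ha b hb c hc d hd hab hcd]
      have s1 : ∑ c ∈ D, v c a = ∑ d ∈ D, v a d := Finset.sum_congr rfl fun c _ => hvs c a
      have s2 : ∑ c ∈ D, v c b = ∑ d ∈ D, v b d := Finset.sum_congr rfl fun c _ => hvs c b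
      rw [e, row_formula v N G ha hb hsum, s1, s2, hvs b a]
      ring
  rw [Finset.sum_congr rfl fun a ha => Finset.sum_congr rfl fun b hb => hrow a ha b hb]
  have t1 : ∑ a ∈ D, ∑ b ∈ D, v a b * ∑ d ∈ D, v a d = ∑ a ∈ D, (∑ b ∈ D, v a b) ^ 2 := by
    refine Finset.sum_congr rfl fun a _ => ?_
    rw [← Finset.sum_mul, sq]
  have t2 : ∑ a ∈ D, ∑ b ∈ D, v a b * ∑ d ∈ D, v b d = ∑ a ∈ D, (∑ b ∈ D, v a b) ^ 2 := by
    rw [Finset.sum_comm]
    refine Finset.sum_congr rfl fun b _ => ?_
    rw [← Finset.sum_mul, sq]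
    congr 1
    exact Finset.sum_congr rfl fun a _ => hvs a b
  calc ∑ a ∈ D, ∑ b ∈ D, (2 * (N - G) * (v a b * ∑ d ∈ D, v a d)
        + 2 * (N - G) * (v a b * ∑ d ∈ D, v b d) + 2 * G * v a b ^ 2)
      = 2 * (N - G) * (∑ a ∈ D, ∑ b ∈ D, v a b * ∑ d ∈ D, v a d)
        + 2 * (N - G) * (∑ a ∈ D, ∑ b ∈ D, v a b * ∑ d ∈ D, v b d)
        + 2 * G * ∑ a ∈ D, ∑ b ∈ D, v a b ^ 2 := by
        simp only [Finset.sum_add_distrib, Finset.mul_sum]
    _ = _ := by
        rw [t1, t2]
        ring

/-- Every `p`-subset `T` of `D` separates the same number of ordered pairs. -/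
theorem sum_sum_sepInd {D : Finset α} {p : ℕ} {T : Finset α} (hT : T ∈ D.powersetCard p) :
    ∑ a ∈ D, ∑ b ∈ D, sepInd a b T = 2 * ((p : ℝ) * ((D.card : ℝ) - p)) := by
  rw [mem_powersetCard] at hT
  have e : ∀ a b, sepInd a b T
      = (if a ∈ T then (1 : ℝ) else 0) * (1 - if b ∈ T then (1 : ℝ) else 0)
        + (1 - if a ∈ T then (1 : ℝ) else 0) * (if b ∈ T then (1 : ℝ) else 0) := by
    intro a b
    unfold sepInd
    by_cases ha : a ∈ T <;> by_cases hb : b ∈ T <;> simp [ha, hb]
  have h1 : ∑ a ∈ D, (if a ∈ T then (1 : ℝ) else 0) = p := by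
    rw [Finset.sum_boole, Finset.filter_mem_eq_inter, Finset.inter_eq_right.mpr hT.1, hT.2]
  have h2 : ∑ a ∈ D, (1 - if a ∈ T then (1 : ℝ) else 0) = (D.card : ℝ) - p := by
    rw [Finset.sum_sub_distrib, h1]
    simp
  calc ∑ a ∈ D, ∑ b ∈ D, sepInd a b T
      = (∑ a ∈ D, (if a ∈ T then (1 : ℝ) else 0)) * (∑ b ∈ D, (1 - if b ∈ T then (1 : ℝ) else 0))
        + (∑ a ∈ D, (1 - if a ∈ T then (1 : ℝ) else 0)) * (∑ b ∈ D, (if b ∈ T then (1 : ℝ) else 0)) := by
        simp only [e, Finset.sum_add_distrib, Finset.sum_mul_sum]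
    _ = _ := by
        rw [h1, h2]
        ring

theorem sum_comm3 {ι κ μ : Type*} (s : Finset ι) (t : Finset κ) (u : Finset μ)
    (f : ι → κ → μ → ℝ) :
    ∑ x ∈ s, ∑ y ∈ t, ∑ z ∈ u, f x y z = ∑ z ∈ u, ∑ x ∈ s, ∑ y ∈ t, f x y z :=
  (Finset.sum_congr rfl fun _ _ => Finset.sum_comm).trans Finset.sum_comm

/-- The Gram bound, for ordered pairs. -/
theorem sep_gram_ordered (D : Finset α) (p : ℕ) (hp : 1 ≤ p) (hm : 2 ≤ D.card)
    (h : Finset α → ℝ) (hsum : ∑ T ∈ D.powersetCard p, h T = 0) :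
    ∑ a ∈ D, ∑ b ∈ D, (∑ T ∈ D.powersetCard p, h T * sepInd a b T) ^ 2
      ≤ 2 * ((D.card : ℝ) - 2) * n2 D.card p * ∑ T ∈ D.powersetCard p, h T ^ 2 := by
  classical
  set P := D.powersetCard p with hP
  set v : α → α → ℝ := fun a b => ∑ T ∈ P, h T * sepInd a b T with hv
  set w : Finset α → ℝ := fun T => ∑ a ∈ D, ∑ b ∈ D, v a b * sepInd a b T with hw
  set N : ℝ := n2 D.card p with hN
  set G : ℝ := g4 D.card p with hG
  set m : ℝ := (D.card : ℝ) with hmdef
  have hm2 : (2 : ℝ) ≤ m := by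
    rw [hmdef]
    exact_mod_cast hm
  have hN0 : 0 ≤ N := n2_nonneg _ _
  have hG0 : 0 ≤ G := g4_nonneg _ _
  have hGN : G ≤ 2 * N := g4_le _ _
  have hGm : G = 0 ∨ (4 : ℝ) ≤ m := by
    by_cases h4 : 4 ≤ D.card
    · right
      rw [hmdef]
      exact_mod_cast h4
    · left
      exact g4_eq_zero_of_lt (by omega)
  have hvs : ∀ a b, v a b = v b a := fun a b =>
    Finset.sum_congr rfl fun T _ => by rw [sepInd_comm]
  have hv0 : ∀ a, v a a = 0 := fun a =>
    Finset.sum_eq_zero fun T _ => by rw [sepInd_self, mul_zero]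
  -- the total of `v` vanishes
  have hvsum : ∑ a ∈ D, ∑ b ∈ D, v a b = 0 := by
    calc ∑ a ∈ D, ∑ b ∈ D, v a b
        = ∑ T ∈ P, ∑ a ∈ D, ∑ b ∈ D, h T * sepInd a b T := sum_comm3 D D P _
      _ = ∑ T ∈ P, h T * (2 * ((p : ℝ) * (m - p))) := by
          refine Finset.sum_congr rfl fun T hT => ?_
          rw [← sum_sum_sepInd hT]
          simp only [Finset.mul_sum]
      _ = 0 := by rw [← Finset.sum_mul, hsum, zero_mul]
  -- `V = <h, w>`
  have hVw : ∑ a ∈ D, ∑ b ∈ D, v a b ^ 2 = ∑ T ∈ P, h T * w T := by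
    calc ∑ a ∈ D, ∑ b ∈ D, v a b ^ 2
        = ∑ a ∈ D, ∑ b ∈ D, ∑ T ∈ P, h T * (v a b * sepInd a b T) := by
          refine Finset.sum_congr rfl fun a _ => Finset.sum_congr rfl fun b _ => ?_
          rw [sq]
          conv_lhs => rw [hv]
          simp only []
          rw [Finset.mul_sum]
          refine Finset.sum_congr rfl fun T _ => ?_
          ring
      _ = ∑ T ∈ P, ∑ a ∈ D, ∑ b ∈ D, h T * (v a b * sepInd a b T) := sum_comm3 D D P _
      _ = ∑ T ∈ P, h T * w T := by
          refine Finset.sum_congr rfl fun T _ => ?_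
          simp only [hw, Finset.mul_sum]
  -- `|w|^2 = v G v`
  have hww : ∑ T ∈ P, w T ^ 2
      = ∑ a ∈ D, ∑ b ∈ D, v a b * ∑ c ∈ D, ∑ d ∈ D, v c d *
          ∑ T ∈ P, sepInd a b T * sepInd c d T := by
    have e1 : ∀ a b, ∑ T ∈ P, sepInd a b T * w T
        = ∑ c ∈ D, ∑ d ∈ D, v c d * ∑ T ∈ P, sepInd a b T * sepInd c d T := by
      intro a b
      calc ∑ T ∈ P, sepInd a b T * w T
          = ∑ T ∈ P, ∑ c ∈ D, ∑ d ∈ D, v c d * (sepInd a b T * sepInd c d T) := by
            refine Finset.sum_congr rfl fun T _ => ?_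
            simp only [hw, Finset.mul_sum]
            refine Finset.sum_congr rfl fun c _ => Finset.sum_congr rfl fun d _ => ?_
            ring
        _ = ∑ c ∈ D, ∑ d ∈ D, ∑ T ∈ P, v c d * (sepInd a b T * sepInd c d T) :=
            (sum_comm3 D D P _).symm
        _ = _ := by
            simp only [Finset.mul_sum]
    calc ∑ T ∈ P, w T ^ 2
        = ∑ T ∈ P, ∑ a ∈ D, ∑ b ∈ D, v a b * (sepInd a b T * w T) := by
          refine Finset.sum_congr rfl fun T _ => ?_
          rw [sq]
          conv_lhs => lhs; rw [hw]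
          simp only []
          rw [Finset.sum_mul]
          refine Finset.sum_congr rfl fun a _ => ?_
          rw [Finset.sum_mul]
          refine Finset.sum_congr rfl fun b _ => ?_
          ring
      _ = ∑ a ∈ D, ∑ b ∈ D, ∑ T ∈ P, v a b * (sepInd a b T * w T) := (sum_comm3 D D P _).symm
      _ = _ := by
          refine Finset.sum_congr rfl fun a _ => Finset.sum_congr rfl fun b _ => ?_
          rw [← Finset.mul_sum, e1]
  have hgram : ∑ T ∈ P, w T ^ 2
      = 4 * (N - G) * ∑ a ∈ D, (∑ b ∈ D, v a b) ^ 2 + 2 * G * ∑ a ∈ D, ∑ b ∈ D, v a b ^ 2 := by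
    rw [hww]
    exact gram_algebra D v (fun a b c d => ∑ T ∈ P, sepInd a b T * sepInd c d T) N G hvs hv0
      (fun a ha b hb c hc d hd hab hcd => gram_entry D p hp ha hb hc hd hab hcd) hvsum
  set V := ∑ a ∈ D, ∑ b ∈ D, v a b ^ 2 with hV
  set H2 := ∑ T ∈ P, h T ^ 2 with hH2
  set mv : α → ℝ := fun a => ∑ b ∈ D, v a b with hmv
  set Mm := ∑ a ∈ D, mv a ^ 2 with hMm
  have hV0 : 0 ≤ V := Finset.sum_nonneg fun a _ => Finset.sum_nonneg fun b _ => sq_nonneg _
  have hH0 : 0 ≤ H2 := Finset.sum_nonneg fun T _ => sq_nonneg _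
  have hMm0 : 0 ≤ Mm := Finset.sum_nonneg fun a _ => sq_nonneg _
  have hmvsum : ∑ a ∈ D, mv a = 0 := hvsum
  -- Cauchy-Schwarz
  have hCS : V ^ 2 ≤ H2 * ∑ T ∈ P, w T ^ 2 := by
    rw [hVw]
    exact Finset.sum_mul_sq_le_sq_mul_sq P h w
  -- the incidence bound `2 Mm ≤ (m - 2) V`
  have hMbound : 2 * Mm ≤ (m - 2) * V := by
    set u : α → α → ℝ := fun a b => if a = b then 0 else mv a + mv b with hu
    have h2M : ∑ a ∈ D, ∑ b ∈ D, v a b * u a b = 2 * Mm := by
      have e1 : ∀ a b, v a b * u a b = v a b * mv a + v a b * mv b := by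
        intro a b
        by_cases hab : a = b
        · subst hab
          rw [hv0]
          ring
        · simp only [hu, if_neg hab]
          ring
      have t1 : ∑ a ∈ D, ∑ b ∈ D, v a b * mv a = Mm := by
        refine Finset.sum_congr rfl fun a _ => ?_
        rw [← Finset.sum_mul, sq]
      have t2 : ∑ a ∈ D, ∑ b ∈ D, v a b * mv b = Mm := by
        rw [Finset.sum_comm]
        refine Finset.sum_congr rfl fun b _ => ?_
        rw [← Finset.sum_mul, sq]
        congr 1
        exact Finset.sum_congr rfl fun a _ => hvs a b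
      simp only [e1, Finset.sum_add_distrib]
      rw [t1, t2]
      ring
    have hu2 : ∑ a ∈ D, ∑ b ∈ D, u a b ^ 2 = (2 * m - 4) * Mm := by
      have e1 : ∀ a b, u a b ^ 2 = (mv a ^ 2 + 2 * (mv a * mv b) + mv b ^ 2)
          - (2 * mv a) ^ 2 * dl a b := by
        intro a b
        by_cases hab : a = b
        · subst hab
          simp only [hu, dl, if_true]
          ring
        · simp only [hu, dl, if_neg hab]
          ring
      have t0 : ∀ a ∈ D, ∑ b ∈ D, (2 * mv a) ^ 2 * dl a b = (2 * mv a) ^ 2 := fun a ha =>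
        sum_mul_dl ha (fun _ => (2 * mv a) ^ 2)
      have t1 : ∑ a ∈ D, ∑ b ∈ D, mv a ^ 2 = m * Mm := by
        simp only [Finset.sum_const, nsmul_eq_mul]
        rw [← Finset.mul_sum]
      have t2 : ∑ a ∈ D, ∑ b ∈ D, 2 * (mv a * mv b) = 0 := by
        have : ∀ a ∈ D, ∑ b ∈ D, 2 * (mv a * mv b) = 0 := by
          intro a _
          rw [← Finset.mul_sum, ← Finset.mul_sum, hmvsum]
          ring
        exact Finset.sum_eq_zero this
      have t3 : ∑ a ∈ D, ∑ b ∈ D, mv b ^ 2 = m * Mm := by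
        simp only [Finset.sum_const, nsmul_eq_mul]
        rfl
      have t4 : ∑ a ∈ D, ∑ b ∈ D, (2 * mv a) ^ 2 * dl a b = 4 * Mm := by
        rw [Finset.sum_congr rfl t0, hMm, Finset.mul_sum]
        refine Finset.sum_congr rfl fun a _ => ?_
        ring
      simp only [e1, Finset.sum_sub_distrib, Finset.sum_add_distrib]
      rw [t1, t2, t3, t4]
      ring
    have hcs := Finset.sum_mul_sq_le_sq_mul_sq (D ×ˢ D) (fun x : α × α => v x.1 x.2)
      (fun x : α × α => u x.1 x.2)
    rw [Finset.sum_product, Finset.sum_product, Finset.sum_product] at hcs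
    simp only [] at hcs
    rw [h2M, hu2] at hcs
    -- (2 Mm)^2 ≤ V * ((2m - 4) Mm)
    by_contra hcon
    have hcon' := not_le.mp hcon
    have hMpos : 0 < Mm := by nlinarith
    nlinarith
  -- the bound on the quadratic form
  have hB : 4 * (N - G) * Mm + 2 * G * V ≤ 2 * (m - 2) * N * V := by
    by_cases hNG : G ≤ N
    · have h1 : (N - G) * (2 * Mm) ≤ (N - G) * ((m - 2) * V) :=
        mul_le_mul_of_nonneg_left hMbound (by linarith)
      have h2 : 0 ≤ G * V * (m - 3) := by
        rcases hGm with h0 | h4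
        · rw [h0]
          simp
        · exact mul_nonneg (mul_nonneg hG0 hV0) (by linarith)
      nlinarith
    · have hNG' := not_le.mp hNG
      have h4 : (4 : ℝ) ≤ m := by
        rcases hGm with h0 | h4
        · exfalso
          linarith
        · exact h4
      have h1 : (N - G) * Mm ≤ 0 := mul_nonpos_of_nonpos_of_nonneg (by linarith) hMm0
      have h2 : G * V ≤ 2 * N * V := mul_le_mul_of_nonneg_right hGN hV0
      have h3 : 2 * (N * V) ≤ (m - 2) * (N * V) :=
        mul_le_mul_of_nonneg_right (by linarith) (mul_nonneg hN0 hV0)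
      nlinarith
  -- conclusion
  have hfin : V ^ 2 ≤ (2 * (m - 2) * N * H2) * V := by
    calc V ^ 2 ≤ H2 * ∑ T ∈ P, w T ^ 2 := hCS
      _ = H2 * (4 * (N - G) * Mm + 2 * G * V) := by rw [hgram]
      _ ≤ H2 * (2 * (m - 2) * N * V) := mul_le_mul_of_nonneg_left hB hH0
      _ = _ := by ring
  rcases hV0.eq_or_lt with h0 | hpos
  · rw [← h0]
    exact mul_nonneg (mul_nonneg (mul_nonneg (by norm_num) (by linarith)) hN0) hH0
  · rw [sq] at hfin
    exact le_of_mul_le_mul_right hfin hpos

theorem inter_pair_card_eq_one_iff {a b : α} (hab : a ≠ b) (T : Finset α) :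
    (T ∩ {a, b}).card = 1 ↔ (a ∈ T ∧ b ∉ T) ∨ (a ∉ T ∧ b ∈ T) := by
  have e : (T ∩ {a, b}).card = (if a ∈ T then 1 else 0) + (if b ∈ T then 1 else 0) := by
    rw [Finset.inter_comm, ← Finset.filter_mem_eq_inter, Finset.card_filter,
      Finset.sum_pair hab]
  rw [e]
  by_cases ha : a ∈ T <;> by_cases hb : b ∈ T <;> simp [ha, hb]

theorem sum_filter_sep (P : Finset (Finset α)) (h : Finset α → ℝ) {a b : α} (hab : a ≠ b) :
    ∑ T ∈ P.filter (fun T => (T ∩ {a, b}).card = 1), h T = ∑ T ∈ P, h T * sepInd a b T := by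
  rw [Finset.sum_filter]
  refine Finset.sum_congr rfl fun T _ => ?_
  unfold sepInd
  by_cases hc : (T ∩ {a, b}).card = 1
  · rw [if_pos hc, if_pos ((inter_pair_card_eq_one_iff hab T).mp hc), mul_one]
  · rw [if_neg hc, if_neg (fun h' => hc ((inter_pair_card_eq_one_iff hab T).mpr h')), mul_zero]

/-- A sum over ordered pairs of distinct elements is twice the sum over `2`-subsets. -/
theorem sum_offDiag_pair (D : Finset α) (F : Finset α → ℝ) :
    ∑ x ∈ D.offDiag, F {x.1, x.2} = 2 * ∑ c ∈ D.powersetCard 2, F c := by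
  have hmaps : ∀ x ∈ D.offDiag, ({x.1, x.2} : Finset α) ∈ D.powersetCard 2 := by
    intro x hx
    rw [mem_offDiag] at hx
    rw [mem_powersetCard]
    refine ⟨?_, Finset.card_pair hx.2.2⟩
    intro z hz
    simp only [mem_insert, mem_singleton] at hz
    rcases hz with rfl | rfl
    exacts [hx.1, hx.2.1]
  rw [← Finset.sum_fiberwise_of_maps_to hmaps, Finset.mul_sum]
  refine Finset.sum_congr rfl fun c hc => ?_
  rw [mem_powersetCard] at hc
  obtain ⟨a, b, hab, rfl⟩ := Finset.card_eq_two.mp hc.2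
  have ha : a ∈ D := hc.1 (by simp)
  have hb : b ∈ D := hc.1 (by simp)
  have hfib : (D.offDiag.filter fun x : α × α => ({x.1, x.2} : Finset α) = {a, b})
      = {(a, b), (b, a)} := by
    ext ⟨x, y⟩
    simp only [mem_filter, mem_offDiag, mem_insert, mem_singleton, Prod.mk.injEq]
    constructor
    · rintro ⟨⟨_, _, hxy⟩, he⟩
      have hx' : x ∈ ({a, b} : Finset α) := by
        rw [← he]
        simp
      have hy' : y ∈ ({a, b} : Finset α) := by
        rw [← he]
        simp
      simp only [mem_insert, mem_singleton] at hx' hy'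
      rcases hx' with rfl | rfl <;> rcases hy' with rfl | rfl
      · exact absurd rfl hxy
      · exact Or.inl ⟨rfl, rfl⟩
      · exact Or.inr ⟨rfl, rfl⟩
      · exact absurd rfl hxy
    · rintro (⟨rfl, rfl⟩ | ⟨rfl, rfl⟩)
      · exact ⟨⟨ha, hb, hab⟩, rfl⟩
      · exact ⟨⟨hb, ha, hab.symm⟩, Finset.pair_comm _ _⟩
  have hne : (a, b) ≠ (b, a) := by
    intro h'
    exact hab (Prod.mk.inj h').1
  rw [hfib, Finset.sum_pair hne]
  simp only []
  rw [Finset.pair_comm b a]
  ring

/-- **Gram bound for the separation statistics.**  For a function `h` of zero sum on the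
`p`-subsets of `D`, the sum over all pairs `c ⊆ D` of the squared sum of `h` over the `p`-subsets
separating `c` is at most `m₂ * C(m - 2, p - 1) * ∑ h^2`, where `m = card D` and `m₂ = m - 2`. -/
theorem sep_gram_bound (D : Finset α) (p : ℕ) (h : Finset α → ℝ)
    (hsum : ∑ T ∈ D.powersetCard p, h T = 0) :
    ∑ c ∈ D.powersetCard 2,
        (∑ T ∈ (D.powersetCard p).filter (fun T => (T ∩ c).card = 1), h T) ^ 2
      ≤ ((D.card : ℝ) - 2) * ((D.card - 2).choose (p - 1) : ℝ)
          * ∑ T ∈ D.powersetCard p, h T ^ 2 := by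
  by_cases hdeg : p = 0 ∨ D.card ≤ 1
  · -- degenerate cases: `h` vanishes identically on the `p`-subsets
    have hcard : (D.powersetCard p).card ≤ 1 := by
      rw [Finset.card_powersetCard]
      rcases hdeg with rfl | hm
      · simp
      · have h01 : D.card = 0 ∨ D.card = 1 := by omega
        rcases h01 with h0 | h1
        · rw [h0]
          rcases p with _ | p <;> simp
        · rw [h1]
          rcases p with _ | _ | p <;> simp [Nat.choose_eq_zero_of_lt]
    have hz : ∀ T ∈ D.powersetCard p, h T = 0 := by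
      intro T hT
      have hsing : D.powersetCard p = {T} :=
        Finset.eq_singleton_iff_unique_mem.mpr
          ⟨hT, fun T' hT' => Finset.card_le_one.mp hcard T' hT' T hT⟩
      rw [hsing, Finset.sum_singleton] at hsum
      exact hsum
    have hL : ∀ c, ∑ T ∈ (D.powersetCard p).filter (fun T => (T ∩ c).card = 1), h T = 0 :=
      fun c => Finset.sum_eq_zero fun T hT => hz T (Finset.mem_filter.mp hT).1
    have hR : ∑ T ∈ D.powersetCard p, h T ^ 2 = 0 :=
      Finset.sum_eq_zero fun T hT => by rw [hz T hT]; ring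
    simp [hL, hR]
  · have hp : 1 ≤ p := by omega
    have hm2 : 2 ≤ D.card := by omega
    have hord := sep_gram_ordered D p hp hm2 h hsum
    have hconv : ∑ a ∈ D, ∑ b ∈ D, (∑ T ∈ D.powersetCard p, h T * sepInd a b T) ^ 2
        = 2 * ∑ c ∈ D.powersetCard 2,
            (∑ T ∈ (D.powersetCard p).filter (fun T => (T ∩ c).card = 1), h T) ^ 2 := by
      rw [← sum_offDiag_pair D (fun c =>
        (∑ T ∈ (D.powersetCard p).filter (fun T => (T ∩ c).card = 1), h T) ^ 2)]
      have hoff : D.offDiag = (D ×ˢ D).filter (fun x : α × α => x.1 ≠ x.2) := by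
        ext x
        simp only [mem_offDiag, mem_filter, mem_product]
        tauto
      rw [← Finset.sum_product', hoff, Finset.sum_filter]
      refine Finset.sum_congr rfl fun x _ => ?_
      by_cases hx : x.1 = x.2
      · rw [if_neg (not_not.mpr hx), hx]
        have : ∑ T ∈ D.powersetCard p, h T * sepInd x.2 x.2 T = 0 :=
          Finset.sum_eq_zero fun T _ => by rw [sepInd_self, mul_zero]
        rw [this]
        ring
      · rw [if_pos hx, sum_filter_sep _ h hx]
    rw [hconv] at hord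
    unfold n2 at hord
    linarith

end Vale.Agent.Lib.P335.H13
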